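import Vale.Agent.P207.N4.Dim
import Vale.Agent.P207.N5.H229.JetQ
import Vale.Agent.P207.N5.H310.ProdN5
import Vale.Agent.P207.N5.H547.LqN0
import Vale.Agent.P207.N5.H751.Fin

/-!
# P207, line N5 (`b < 2 a`), step 7: (PROD) for every picture with the flow, no hypothesis
-/

set_option linter.unusedSectionVars false
set_option maxSynthPendingDepth 3

open Set Filter Topology Metric
open scoped ContDiff

noncomputable section

namespace Vale.Agent.P207.N4.V

open Vale.Agent.P207.N3

variable [Dim]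

variable {Γ X B : Type} [Group Γ] [MetricSpace X] [ProperSpace X] [MulAction Γ X]
  [IsIsometricSMul Γ X] [TopologicalSpace B] [CompactSpace B] [T2Space B] [MulAction Γ B]
  [ContinuousConstSMul Γ B] {L : Leaf Γ X B} [MeasurableSpace B] [BorelSpace B] {V : Type}
  [NormedAddCommGroup V] [NormedSpace ℝ V] [FiniteDimensional ℝ V]

/-- **(PROD)** the rough space is not everything -/
theorem PicG.prod (G : PicG L V) : G.toPic.Prod := by
  intro hr
  obtain ⟨CQ, hQ⟩ := G.toPic.lq_N0_of (H751.lqr_main G.toPic) hr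
  obtain ⟨C, R, hR0, hR1, hj⟩ := G.jets_q ⟨CQ, fun x => (hQ x).2⟩ (ε := 1 / 2) (by norm_num)
    (by norm_num)
  obtain ⟨x⟩ := L.nonempty
  obtain ⟨a, A, Q, ha, hA, hQ', hz⟩ := hj x
  have h1 : P207.H558.HasJet R (3 - 1 / 2 : ℝ) C (G.toPic.Na x) := ⟨a, A, Q, ha, hA, hQ', hz⟩
  exact H310.prod_of_jet_Na G.toPic (by norm_num) hR0 h1 hr

end Vale.Agent.P207.N4.V
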