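import Vale.Agent.P207.N4.Dim
import Vale.Agent.P207.N5.H547.AffLemC
import Vale.Agent.P207.N5.H547.Lab
import Vale.Agent.P207.H582.Resolv

/-!
# P207, line N5, END-GLUE: the disc of `x` seen from `flip x`

`v = flip x` has the disc of `x`. `P.kap x z` is the affine coordinate, in the frame `v`, of the
point of the disc with affine coordinate `z` in the frame `x`. The geodesic from `em x` to
`ξ = pt x z` crosses the disc there. So the momentum of the leaf `ξ`, over the leaf `em v = ep x`, is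
the smooth function `P.pm x z`, and the tensor `N0 x z` is a smooth function of the Hessian of
`P.dl v ξ` at the point `P.kap x z`.
-/

set_option linter.unusedSectionVars false

open Set Filter Topology Metric
open scoped ContDiff

noncomputable section

namespace Vale.Agent.P207.N4.V

open Vale.Agent.P207.N3 Vale.Agent.P207.N4.V.H547 Vale.Agent.P207.N4.H709

variable [Dim]

variable {Γ X B : Type} [Group Γ] [MetricSpace X] [ProperSpace X] [MulAction Γ X]
  [IsIsometricSMul Γ X] [TopologicalSpace B] [CompactSpace B] [T2Space B] [MulAction Γ B]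
  [ContinuousConstSMul Γ B]

namespace Pic

variable {L : Leaf Γ X B} [MeasurableSpace B] [BorelSpace B] {V : Type}
  [NormedAddCommGroup V] [NormedSpace ℝ V] [FiniteDimensional ℝ V] (P : Pic L V)

/-- the affine coordinate, in the frame `flip x`, of the point of the disc of `x` with affine
coordinate `z` -/
def kap (x : X) (z : E2) : E2 := P.Af.cu (L.flip x) (P.dsc x z)

theorem kap_jc : JC P.kap P.Af.dT :=
  (P.Af.cu_jc.pullback L.flip_cont).comp' P.Af.dsc_jc fun p hp => ⟨mem_univ _, P.Af.dsc_mem hp⟩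

theorem kap_zero (x : X) : P.kap x 0 = 0 := by
  rw [kap, dsc, P.Af.dsc_zero, P.Af.cu_zero]

theorem kap_dT {x : X} {z : E2} (h : (x, z) ∈ P.Af.dT) : (L.flip x, P.kap x z) ∈ P.Af.dT :=
  P.Af.dT_cu (L.flip x) (P.Af.dsc_mem h)

theorem dsc_kap {x : X} {z : E2} (h : (x, z) ∈ P.Af.dT) :
    P.dsc (L.flip x) (P.kap x z) = P.dsc x z :=
  P.Af.dsc_cu (L.flip x) (ball_subset_closedBall (P.Af.dsc_mem h))

theorem Th_flip {x : X} {z : E2} (h : (x, z) ∈ P.Af.dT) :
    P.Th (L.flip x) (P.Af.pt x z) (P.kap x z) = L.em x := by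
  have hm := P.mem3 h
  rw [Th, P.dsc_kap h, P.Bu.en_flip x _ _ hm, ← P.e_dsc h, ← P.Bu.en_em x _ hm, P.Bu.en_en x _ _ hm]

/-- the momentum at the crossing -/
def pm (x : X) (z : E2) : E2 :=
  -gradient (P.Sq (L.flip x) (L.em (L.flip x)) (L.em x)) (P.kap x z)

/-- the Hessian of the sum of the two Busemann functions of the frame `flip x` -/
def Rr (x : X) (z : E2) : E2 →L[ℝ] E2 :=
  hess (P.Sq (L.flip x) (L.em (L.flip x)) (L.em x)) (P.kap x z)

theorem gr_flip {x : X} {z : E2} (h : (x, z) ∈ P.Af.dT) :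
    P.gr (L.flip x) (P.Af.pt x z) (P.kap x z) = P.pm x z := by
  have hk := P.kap_dT h
  have h1 := P.gradient_Th (L.flip x) (P.Af.pt x z) hk
  rw [P.Th_flip h] at h1
  rw [P.gr_eq_sub _ _ hk, pm, P.gradient_Sq _ _ _ hk, h1]
  abel

theorem hess_bq (x : X) (ξ : B) {q : E2} (h : (x, q) ∈ P.Af.dT) :
    hess (P.bq x ξ) q = fderiv ℝ (P.gr x ξ) q + hess (P.bq x (L.em x)) q := by
  have h1 : P.bq x ξ = fun q => P.dl x ξ q + P.bq x (L.em x) q := by
    funext q
    rw [dl]
    ring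
  have h2 := hess_add (f := P.dl x ξ) (g := P.bq x (L.em x)) (q := q)
    ((P.dl_smooth x ξ h).of_le two_le_infty) ((P.bq_smooth x _ h).of_le two_le_infty)
  rw [P.fderiv_gr, ← h2, ← h1]

theorem hess_flip {x : X} {z : E2} (h : (x, z) ∈ P.Af.dT) :
    hess (P.Sq (L.flip x) (P.Af.pt x z) (L.em x)) (P.kap x z)
      = fderiv ℝ (P.gr (L.flip x) (P.Af.pt x z)) (P.kap x z) + P.Rr x z := by
  have hk := P.kap_dT h
  rw [Rr, P.hess_Sq _ _ _ hk, P.hess_Sq _ _ _ hk, P.hess_bq _ _ hk, add_assoc]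

theorem hess_be_flip (x : X) (ζ : B) {u : E2} (hu : u ∈ ball (0 : E2) 3) :
    hess (P.Bu.be (L.flip x) ζ) u = hess (P.Bu.be x ζ) u := by
  refine hess_congr ?_
  filter_upwards [isOpen_ball.mem_nhds hu] with w hw using P.Bu.be_flip x ζ w hw

/-- the derivative of the disc of `flip x` at the crossing -/
def Wf (x : X) (z : E2) : E2 →L[ℝ] E2 := fderiv ℝ (P.dsc (L.flip x)) (P.kap x z)

/-- **the tensor rule** -/
theorem He_flip {x : X} {z : E2} (h : (x, z) ∈ P.Af.dT) :
    (ContinuousLinearMap.adjoint (P.Wf x z)).comp ((P.He x (P.dsc x z)).comp (P.Wf x z))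
      = fderiv ℝ (P.gr (L.flip x) (P.Af.pt x z)) (P.kap x z) + P.Rr x z := by
  have hk := P.kap_dT h
  have hm := P.mem3 h
  have h1 := P.hess_Sq_Th (L.flip x) (P.Af.pt x z) hk
  rw [P.Th_flip h, P.hess_flip h, P.dsc_kap h, P.hess_be_flip x _ hm, P.hess_be_flip x _ hm] at h1
  rw [h1, He, P.e_dsc h, add_comm (hess (P.Bu.be x (L.em x)) (P.dsc x z))]
  rfl

/-- the derivative of the affine coordinate of `x` in the one of `flip x` -/
def Ai (x : X) (z : E2) : E2 →L[ℝ] E2 := P.Af.dch x z ∘L P.Wf x z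

theorem Wf_unit {x : X} {z : E2} (h : (x, z) ∈ P.Af.dT) : IsUnit (P.Wf x z) := by
  have hk := P.kap_dT h
  exact ⟨⟨P.Wf x z, P.Af.dch (L.flip x) (P.kap x z), P.Af.der_dsc_cu hk, P.Af.der_cu_dsc hk⟩, rfl⟩

/-- **the tensor in the affine coordinate, seen from `flip x`** -/
theorem Na_flip {x : X} {z : E2} (h : (x, z) ∈ P.Af.dT)
    (hu : IsUnit (fderiv ℝ (P.gr (L.flip x) (P.Af.pt x z)) (P.kap x z) + P.Rr x z)) :
    P.Na x z = P.Bu.c₀ • ((P.Ai x z).comp ((Ring.inverse
      (fderiv ℝ (P.gr (L.flip x) (P.Af.pt x z)) (P.kap x z) + P.Rr x z)).comp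
        (ContinuousLinearMap.adjoint (P.Ai x z)))) + P.Rl x z := by
  have h1 := H281.inverse_conj (P.Wf_unit h) hu (P.He_flip h)
  rw [P.Na_eq x h, P.N0_eq x h, h1, Ai, ContinuousLinearMap.adjoint_comp]
  rfl

/-! ### the families -/

theorem SqF_jc : JC (fun x q => P.Sq (L.flip x) (L.em (L.flip x)) (L.em x) q)
    {p : X × E2 | (L.flip p.1, p.2) ∈ P.Af.dT} := by
  have c1 : Continuous fun x : X => ((L.flip x, L.em (L.flip x)) : X × B) :=
    L.flip_cont.prodMk (L.em_cont.comp L.flip_cont)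
  have c2 : Continuous fun x : X => ((L.flip x, L.em x) : X × B) := L.flip_cont.prodMk L.em_cont
  exact (P.bq_jc.pullback c1).add (P.bq_jc.pullback c2)

theorem pm_jc : JC P.pm P.Af.dT := by
  have h1 := (gradient_jc P.SqF_jc).comp' P.kap_jc fun p hp => P.kap_dT (x := p.1) hp
  exact h1.neg

theorem Rr_jc : JC P.Rr P.Af.dT :=
  (hess_jc P.SqF_jc).comp' P.kap_jc fun p hp => P.kap_dT (x := p.1) hp

theorem Wf_jc : JC P.Wf P.Af.dT :=
  (P.Af.dsc_jc.fderiv.pullback L.flip_cont).comp' P.kap_jc fun p hp => P.kap_dT (x := p.1) hp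

theorem Ai_jc : JC P.Ai P.Af.dT := P.Af.dch_jc.clm_comp P.Wf_jc

theorem pt_flip_zero (x : X) : P.Af.pt (L.flip x) 0 = L.em x := by
  rw [P.Af.pt_zero, L.ep_flip, L.flip_flip]

theorem grad_SqF_zero (x : X) :
    gradient (P.Sq (L.flip x) (L.em (L.flip x)) (L.em x)) 0 = 0 := by
  have h1 := P.gradient_Sq_pt (L.flip x) (P.Af.zero_dT (L.flip x))
  rwa [P.pt_flip_zero] at h1

theorem pm_zero (x : X) : P.pm x 0 = 0 := by
  rw [pm, P.kap_zero, P.grad_SqF_zero, neg_zero]

theorem Rr_zero (x : X) : P.Rr x 0 = P.HS (L.flip x) 0 := by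
  rw [Rr, P.kap_zero, HS, P.pt_flip_zero]

theorem Rr_zero_inv (x : X) : (P.Rr x 0).IsInvertible := by
  rw [Rr_zero]
  exact P.HS_inv _ (P.Af.zero_dT _)

end Pic

end Vale.Agent.P207.N4.V
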